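import Mathlib

namespace Vale.Agent.Lib.P065

/-- Twice the signed area of the triangle `a b c`; positive when `c` is to the left of the
directed line from `a` to `b`. -/
def orient (a b c : ℝ × ℝ) : ℝ := (b.1 - a.1) * (c.2 - a.2) - (b.2 - a.2) * (c.1 - a.1)

/-- No three points of `P` are collinear. -/
def NoThreeCollinear (P : Finset (ℝ × ℝ)) : Prop :=
  ∀ a ∈ P, ∀ b ∈ P, ∀ c ∈ P, a ≠ b → a ≠ c → b ≠ c → orient a b c ≠ 0

open Classical in
/-- The number of points of `P` strictly to the left of the directed line from `a` to `b`. -/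
noncomputable def leftCount (P : Finset (ℝ × ℝ)) (a b : ℝ × ℝ) : ℕ :=
  (P.filter (fun x => 0 < orient a b x)).card

open Classical in
/-- The pairs of points of `P` spanning a halving line: as many points of `P` on each open side. -/
noncomputable def halvingPairs (P : Finset (ℝ × ℝ)) : Finset (Finset (ℝ × ℝ)) :=
  (P.powersetCard 2).filter (fun s => ∃ a b, s = {a, b} ∧ a ≠ b ∧ leftCount P a b = leftCount P b a)

open Classical in
/-- The `k`-sets of `P`: subsets of size `k` strictly separated from the rest of `P` by a line. -/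
noncomputable def kSets (P : Finset (ℝ × ℝ)) (k : ℕ) : Finset (Finset (ℝ × ℝ)) :=
  (P.powersetCard k).filter (fun S => ∃ α β γ : ℝ,
    (∀ x ∈ S, γ < α * x.1 + β * x.2) ∧ (∀ x ∈ P \ S, α * x.1 + β * x.2 < γ))

end Vale.Agent.Lib.P065
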