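import Mathlib

namespace Vale.Agent.Lib.P065

open Finset

variable {ι : Type*} [DecidableEq ι]

/-- Height of a unit step walk at the real parameter `x`. -/
noncomputable def walkL (c : ι → ℝ) (up : ι → Prop) [DecidablePred up] (T : Finset ι) (C0 : ℤ)
    (x : ℝ) : ℤ :=
  C0 + ((T.filter (fun j => ¬ up j ∧ x < c j)).card : ℤ) +
    ((T.filter (fun j => up j ∧ c j < x)).card : ℤ)

lemma walkL_insert_up (c : ι → ℝ) (up : ι → Prop) [DecidablePred up] (T : Finset ι) (C0 : ℤ)
    (a : ι) (ha : up a) (x : ℝ) (hx : x ≤ c a) :
    walkL c up (insert a T) C0 x = walkL c up T C0 x := by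
  unfold walkL
  have h1 : (insert a T).filter (fun j => ¬ up j ∧ x < c j) =
      T.filter (fun j => ¬ up j ∧ x < c j) := by
    rw [filter_insert, if_neg (by simp [ha])]
  have h2 : (insert a T).filter (fun j => up j ∧ c j < x) =
      T.filter (fun j => up j ∧ c j < x) := by
    rw [filter_insert, if_neg (by simp [not_lt.mpr hx])]
  rw [h1, h2]

lemma walkL_insert_down (c : ι → ℝ) (up : ι → Prop) [DecidablePred up] (T : Finset ι) (C0 : ℤ)
    (a : ι) (haT : a ∉ T) (ha : ¬ up a) (x : ℝ) (hx : x < c a) :
    walkL c up (insert a T) C0 x = walkL c up T (C0 + 1) x := by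
  unfold walkL
  have h1 : (insert a T).filter (fun j => ¬ up j ∧ x < c j) =
      insert a (T.filter (fun j => ¬ up j ∧ x < c j)) := by
    rw [filter_insert, if_pos ⟨ha, hx⟩]
  have h2 : (insert a T).filter (fun j => up j ∧ c j < x) =
      T.filter (fun j => up j ∧ c j < x) := by
    rw [filter_insert, if_neg (by simp [ha])]
  rw [h1, h2, card_insert_of_notMem (by simp [haT])]
  push_cast
  ring

lemma walkL_at_max (c : ι → ℝ) (up : ι → Prop) [DecidablePred up] (T : Finset ι) (C0 : ℤ)
    (x : ℝ) (hx : ∀ j ∈ T, c j < x) :
    walkL c up T C0 x = C0 + ((T.filter up).card : ℤ) := by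
  unfold walkL
  have h1 : T.filter (fun j => ¬ up j ∧ x < c j) = ∅ := by
    apply filter_eq_empty_iff.mpr
    intro j hj
    have := hx j hj
    simp only [not_and, not_lt]
    intro _
    exact this.le
  have h2 : T.filter (fun j => up j ∧ c j < x) = T.filter up := by
    apply filter_congr
    intro j hj
    simp [hx j hj]
  rw [h1, h2]
  simp

/-- Up crossings minus down crossings of a fixed level, for a walk sorted by `c`. -/
theorem walk_invariant (c : ι → ℝ) (up : ι → Prop) [DecidablePred up] (k : ℤ) (T : Finset ι)
    (hc : Set.InjOn c T) (C0 : ℤ) :
    ((T.filter (fun i => up i ∧ walkL c up T C0 (c i) = k)).card : ℤ)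
      - ((T.filter (fun i => ¬ up i ∧ walkL c up T C0 (c i) = k)).card : ℤ)
      = (if k < C0 + ((T.filter up).card : ℤ) then 1 else 0)
        - (if k < C0 + ((T.filter (fun j => ¬ up j)).card : ℤ) then 1 else 0) := by
  induction T using Finset.induction_on_max_value c generalizing C0 with
  | empty => simp
  | insert a s haT hmax ih =>
    have hlt : ∀ i ∈ s, c i < c a := by
      intro i hi
      refine lt_of_le_of_ne (hmax i hi) ?_
      intro h
      have : i = a := hc (mem_coe.mpr (mem_insert_of_mem hi)) (mem_coe.mpr (mem_insert_self a s)) h
      exact haT (this ▸ hi)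
    have hc' : Set.InjOn c (s : Set ι) := hc.mono (by
      intro x hx
      exact mem_coe.mpr (mem_insert_of_mem (mem_coe.mp hx)))
    by_cases ha : up a
    · -- the new element is an up step
      have hval : walkL c up (insert a s) C0 (c a) = C0 + ((s.filter up).card : ℤ) := by
        rw [walkL_insert_up c up s C0 a ha (c a) le_rfl]
        exact walkL_at_max c up s C0 (c a) hlt
      have hother : ∀ i ∈ s, walkL c up (insert a s) C0 (c i) = walkL c up s C0 (c i) := by
        intro i hi
        exact walkL_insert_up c up s C0 a ha (c i) (hlt i hi).le
      have hU : (insert a s).filter (fun i => up i ∧ walkL c up (insert a s) C0 (c i) = k) =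
          if C0 + ((s.filter up).card : ℤ) = k then
            insert a (s.filter (fun i => up i ∧ walkL c up s C0 (c i) = k))
          else s.filter (fun i => up i ∧ walkL c up s C0 (c i) = k) := by
        rw [filter_insert]
        have hcongr : s.filter (fun i => up i ∧ walkL c up (insert a s) C0 (c i) = k) =
            s.filter (fun i => up i ∧ walkL c up s C0 (c i) = k) := by
          apply filter_congr
          intro i hi
          rw [hother i hi]
        rw [hcongr, hval]
        by_cases h : C0 + ((s.filter up).card : ℤ) = k <;> simp [ha, h]
      have hD : (insert a s).filter (fun i => ¬ up i ∧ walkL c up (insert a s) C0 (c i) = k) =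
          s.filter (fun i => ¬ up i ∧ walkL c up s C0 (c i) = k) := by
        rw [filter_insert, if_neg (by simp [ha])]
        apply filter_congr
        intro i hi
        rw [hother i hi]
      have hUcard : ((insert a s).filter up).card = (s.filter up).card + 1 := by
        rw [filter_insert, if_pos ha, card_insert_of_notMem (by simp [haT])]
      have hDcard : ((insert a s).filter (fun j => ¬ up j)).card =
          (s.filter (fun j => ¬ up j)).card := by
        rw [filter_insert, if_neg (by simpa using ha)]
      have hih := ih hc' C0
      rw [hU, hD, hUcard, hDcard]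
      by_cases h : C0 + ((s.filter up).card : ℤ) = k
      · rw [if_pos h, card_insert_of_notMem (by simp [haT])]
        push_cast
        have e1 : k < C0 + (((s.filter up).card : ℤ) + 1) := by omega
        have e2 : ¬ k < C0 + ((s.filter up).card : ℤ) := by omega
        rw [if_pos e1]
        rw [if_neg e2] at hih
        omega
      · rw [if_neg h]
        push_cast
        have e : (k < C0 + (((s.filter up).card : ℤ) + 1)) ↔ k < C0 + ((s.filter up).card : ℤ) := by
          omega
        simp only [e]
        exact hih
    · -- the new element is a down step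
      have hval : walkL c up (insert a s) C0 (c a) = C0 + ((s.filter up).card : ℤ) := by
        unfold walkL
        have h1 : (insert a s).filter (fun j => ¬ up j ∧ c a < c j) = ∅ := by
          apply filter_eq_empty_iff.mpr
          intro j hj
          rcases mem_insert.mp hj with rfl | hj
          · simp
          · have := hlt j hj
            simp only [not_and, not_lt]
            intro _
            exact this.le
        have h2 : (insert a s).filter (fun j => up j ∧ c j < c a) = s.filter up := by
          rw [filter_insert, if_neg (by simp)]
          apply filter_congr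
          intro j hj
          simp [hlt j hj]
        rw [h1, h2]
        simp
      have hother : ∀ i ∈ s, walkL c up (insert a s) C0 (c i) = walkL c up s (C0 + 1) (c i) := by
        intro i hi
        exact walkL_insert_down c up s C0 a haT ha (c i) (hlt i hi)
      have hU : (insert a s).filter (fun i => up i ∧ walkL c up (insert a s) C0 (c i) = k) =
          s.filter (fun i => up i ∧ walkL c up s (C0 + 1) (c i) = k) := by
        rw [filter_insert, if_neg (by simp [ha])]
        apply filter_congr
        intro i hi
        rw [hother i hi]
      have hD : (insert a s).filter (fun i => ¬ up i ∧ walkL c up (insert a s) C0 (c i) = k) =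
          if C0 + ((s.filter up).card : ℤ) = k then
            insert a (s.filter (fun i => ¬ up i ∧ walkL c up s (C0 + 1) (c i) = k))
          else s.filter (fun i => ¬ up i ∧ walkL c up s (C0 + 1) (c i) = k) := by
        rw [filter_insert]
        have hcongr : s.filter (fun i => ¬ up i ∧ walkL c up (insert a s) C0 (c i) = k) =
            s.filter (fun i => ¬ up i ∧ walkL c up s (C0 + 1) (c i) = k) := by
          apply filter_congr
          intro i hi
          rw [hother i hi]
        rw [hcongr, hval]
        by_cases h : C0 + ((s.filter up).card : ℤ) = k <;> simp [ha, h]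
      have hUcard : ((insert a s).filter up).card = (s.filter up).card := by
        rw [filter_insert, if_neg ha]
      have hDcard : ((insert a s).filter (fun j => ¬ up j)).card =
          (s.filter (fun j => ¬ up j)).card + 1 := by
        rw [filter_insert, if_pos (by simpa using ha), card_insert_of_notMem (by simp [haT])]
      have hih := ih hc' (C0 + 1)
      rw [hU, hD, hUcard, hDcard]
      by_cases h : C0 + ((s.filter up).card : ℤ) = k
      · rw [if_pos h, card_insert_of_notMem (by simp [haT])]
        push_cast
        have e1 : ¬ k < C0 + ((s.filter up).card : ℤ) := by omega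
        have e2 : k < C0 + 1 + ((s.filter up).card : ℤ) := by omega
        rw [if_neg e1]
        rw [if_pos e2] at hih
        have e3 : (k < C0 + (((s.filter (fun j => ¬ up j)).card : ℤ) + 1)) ↔
            k < C0 + 1 + ((s.filter (fun j => ¬ up j)).card : ℤ) := by omega
        simp only [e3]
        omega
      · rw [if_neg h]
        push_cast
        have e3 : (k < C0 + (((s.filter (fun j => ¬ up j)).card : ℤ) + 1)) ↔
            k < C0 + 1 + ((s.filter (fun j => ¬ up j)).card : ℤ) := by omega
        have e4 : (k < C0 + 1 + ((s.filter up).card : ℤ)) ↔ k < C0 + ((s.filter up).card : ℤ) := by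
          omega
        simp only [e3]
        simp only [e4] at hih
        exact hih

/-- Consequence: up crossings are at most down crossings plus one, and conversely. -/
theorem walk_up_le (c : ι → ℝ) (up : ι → Prop) [DecidablePred up] (k : ℤ) (T : Finset ι)
    (hc : Set.InjOn c T) (C0 : ℤ) :
    (T.filter (fun i => up i ∧ walkL c up T C0 (c i) = k)).card ≤
      (T.filter (fun i => ¬ up i ∧ walkL c up T C0 (c i) = k)).card + 1 := by
  have h := walk_invariant c up k T hc C0
  split_ifs at h <;> omega

theorem walk_down_le (c : ι → ℝ) (up : ι → Prop) [DecidablePred up] (k : ℤ) (T : Finset ι)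
    (hc : Set.InjOn c T) (C0 : ℤ) :
    (T.filter (fun i => ¬ up i ∧ walkL c up T C0 (c i) = k)).card ≤
      (T.filter (fun i => up i ∧ walkL c up T C0 (c i) = k)).card + 1 := by
  have h := walk_invariant c up k T hc C0
  split_ifs at h <;> omega

end Vale.Agent.Lib.P065
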