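import Mathlib
import Vale.Agent.Lib.P065.Defs
import Vale.Agent.Lib.P065.Walk

namespace Vale.Agent.Lib.P065

open Finset

open Classical in
/-- The number of `q` in `S` (other than `w`) with the directed edge `w → q` at level `k` is at most
one more than the number of `q` outside `S` with the directed edge `q → w` at level `k`,
whenever `w` is a strict maximum over `S` of a linear functional. -/
theorem alternation_out (P : Finset (ℝ × ℝ)) (hP : NoThreeCollinear P) (w : ℝ × ℝ) (hw : w ∈ P)
    (S : Finset (ℝ × ℝ)) (hS : S ⊆ P) (α β : ℝ)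
    (hext : ∀ q ∈ S, q ≠ w → α * q.1 + β * q.2 < α * w.1 + β * w.2) (k : ℕ) :
    ((S.erase w).filter (fun q => leftCount P w q = k)).card ≤
      ((P \ S).filter (fun q => leftCount P q w = k)).card + 1 := by
  by_cases h0 : α ^ 2 + β ^ 2 = 0
  · have hα : α = 0 := by nlinarith [sq_nonneg α, sq_nonneg β]
    have hβ : β = 0 := by nlinarith [sq_nonneg α, sq_nonneg β]
    have : (S.erase w).filter (fun q => leftCount P w q = k) = ∅ := by
      apply filter_eq_empty_iff.mpr
      intro q hq
      have := hext q (mem_of_mem_erase hq) (ne_of_mem_erase hq)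
      simp [hα, hβ] at this
    rw [this]
    simp
  have hD : 0 < α ^ 2 + β ^ 2 := lt_of_le_of_ne (by positivity) (Ne.symm h0)
  set Φ : ℝ × ℝ → ℝ := fun x => α * (x.1 - w.1) + β * (x.2 - w.2) with hΦ
  set Ξ : ℝ × ℝ → ℝ := fun x => β * (x.1 - w.1) - α * (x.2 - w.2) with hΞ
  have hid : ∀ q x, (α ^ 2 + β ^ 2) * orient w q x = Ξ q * Φ x - Φ q * Ξ x := by
    intro q x
    simp only [orient, hΦ, hΞ]
    ring
  -- walk data
  set T : Finset (ℝ × ℝ) := (P.erase w).filter (fun x => Φ x ≠ 0) with hT
  set c : ℝ × ℝ → ℝ := fun x => Ξ x / Φ x with hc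
  set up : ℝ × ℝ → Prop := fun x => Φ x < 0 with hup
  set C0 : ℤ := (((P.erase w).filter (fun x => Φ x = 0 ∧ 0 < Ξ x)).card : ℤ) with hC0
  -- injectivity of the walk parameter
  have hinj : Set.InjOn c (T : Set (ℝ × ℝ)) := by
    intro a ha b hb hab
    have ha' := mem_filter.mp (mem_coe.mp ha)
    have hb' := mem_filter.mp (mem_coe.mp hb)
    by_contra hne
    have haP := mem_of_mem_erase ha'.1
    have hbP := mem_of_mem_erase hb'.1
    have hwa : w ≠ a := (ne_of_mem_erase ha'.1).symm
    have hwb : w ≠ b := (ne_of_mem_erase hb'.1).symm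
    have h := hP w hw a haP b hbP hwa hwb hne
    apply h
    have h2 : Ξ a / Φ a = Ξ b / Φ b := hab
    rw [div_eq_div_iff ha'.2 hb'.2] at h2
    have h3 := hid a b
    have h4 : (α ^ 2 + β ^ 2) * orient w a b = 0 := by
      rw [h3]
      linarith
    exact (mul_eq_zero.mp h4).resolve_left h0
  -- the level function in terms of the walk
  have hL : ∀ x : ℝ, ((((P.erase w).filter (fun y => x * Φ y < Ξ y)).card : ℕ) : ℤ) =
      walkL c up T C0 x := by
    intro x
    have hsplit : (P.erase w).filter (fun y => x * Φ y < Ξ y) =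
        ((P.erase w).filter (fun y => Φ y = 0 ∧ 0 < Ξ y)) ∪
        (T.filter (fun j => ¬ up j ∧ x < c j)) ∪ (T.filter (fun j => up j ∧ c j < x)) := by
      ext y
      simp only [mem_filter, mem_union, hT, hup, hc]
      constructor
      · rintro ⟨hy, hxy⟩
        rcases lt_trichotomy (Φ y) 0 with hneg | hzero | hpos
        · right
          refine ⟨⟨hy, hneg.ne⟩, hneg, ?_⟩
          rw [div_lt_iff_of_neg hneg]
          linarith
        · left; left
          refine ⟨hy, hzero, ?_⟩
          simpa [hzero] using hxy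
        · left; right
          refine ⟨⟨hy, hpos.ne'⟩, not_lt.mpr hpos.le, ?_⟩
          rw [lt_div_iff₀ hpos]
          exact hxy
      · rintro (((⟨hy, hzero, hpos⟩ | ⟨⟨hy, hne⟩, hnot, hlt⟩)) | ⟨⟨hy, hne⟩, hneg, hlt⟩)
        · exact ⟨hy, by simpa [hzero] using hpos⟩
        · refine ⟨hy, ?_⟩
          have hpos : 0 < Φ y := lt_of_le_of_ne (not_lt.mp hnot) (Ne.symm hne)
          rwa [lt_div_iff₀ hpos] at hlt
        · refine ⟨hy, ?_⟩
          rw [div_lt_iff_of_neg hneg] at hlt
          linarith
    rw [hsplit]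
    have hd1 : Disjoint ((P.erase w).filter (fun y => Φ y = 0 ∧ 0 < Ξ y))
        (T.filter (fun j => ¬ up j ∧ x < c j)) := by
      rw [disjoint_left]
      intro y hy hy'
      have h1 := (mem_filter.mp hy).2.1
      have h2 := (mem_filter.mp (mem_filter.mp hy').1).2
      exact h2 h1
    have hd2 : Disjoint (((P.erase w).filter (fun y => Φ y = 0 ∧ 0 < Ξ y)) ∪
        (T.filter (fun j => ¬ up j ∧ x < c j))) (T.filter (fun j => up j ∧ c j < x)) := by
      rw [disjoint_left]
      intro y hy hy'
      rcases mem_union.mp hy with hy | hy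
      · have h1 := (mem_filter.mp hy).2.1
        have h2 := (mem_filter.mp (mem_filter.mp hy').1).2
        exact h2 h1
      · exact (mem_filter.mp hy).2.1 (mem_filter.mp hy').2.1
    rw [card_union_of_disjoint hd2, card_union_of_disjoint hd1]
    unfold walkL
    push_cast
    ring
  -- left counts as levels
  have hleft_out : ∀ q ∈ T, Φ q < 0 → (leftCount P w q : ℤ) = walkL c up T C0 (c q) := by
    intro q hq hneg
    rw [← hL]
    unfold leftCount
    congr 2
    ext y
    simp only [mem_filter, mem_erase]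
    constructor
    · rintro ⟨hyP, hy⟩
      have hyw : y ≠ w := by
        rintro rfl
        simp [orient] at hy
      refine ⟨⟨hyw, hyP⟩, ?_⟩
      have h1 := hid q y
      have hh : 0 < Ξ q * Φ y - Φ q * Ξ y := by
        rw [← h1]
        exact mul_pos hD hy
      simp only [hc]
      rw [div_mul_eq_mul_div, div_lt_iff_of_neg hneg]
      linarith
    · rintro ⟨⟨hyw, hyP⟩, hy⟩
      refine ⟨hyP, ?_⟩
      simp only [hc] at hy
      rw [div_mul_eq_mul_div, div_lt_iff_of_neg hneg] at hy
      have h1 := hid q y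
      have hh : 0 < (α ^ 2 + β ^ 2) * orient w q y := by
        rw [h1]
        linarith
      exact (pos_iff_pos_of_mul_pos hh).mp hD
  have hleft_in : ∀ q ∈ T, 0 < Φ q → (leftCount P q w : ℤ) = walkL c up T C0 (c q) := by
    intro q hq hpos
    rw [← hL]
    unfold leftCount
    congr 2
    ext y
    simp only [mem_filter, mem_erase]
    have hswap : orient q w y = - orient w q y := by
      simp only [orient]
      ring
    constructor
    · rintro ⟨hyP, hy⟩
      have hyw : y ≠ w := by
        rintro rfl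
        simp [orient] at hy
        nlinarith
      refine ⟨⟨hyw, hyP⟩, ?_⟩
      rw [hswap] at hy
      have h1 := hid q y
      have hh : Ξ q * Φ y - Φ q * Ξ y < 0 := by
        rw [← h1]
        exact mul_neg_of_pos_of_neg hD (by linarith)
      simp only [hc]
      rw [div_mul_eq_mul_div, div_lt_iff₀ hpos]
      linarith
    · rintro ⟨⟨hyw, hyP⟩, hy⟩
      refine ⟨hyP, ?_⟩
      simp only [hc] at hy
      rw [div_mul_eq_mul_div, div_lt_iff₀ hpos] at hy
      rw [hswap]
      have h1 := hid q y
      have hh : (α ^ 2 + β ^ 2) * orient w q y < 0 := by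
        rw [h1]
        linarith
      have : orient w q y < 0 := by
        by_contra hnn
        have := mul_nonneg hD.le (not_lt.mp hnn)
        linarith
      linarith
  -- the main count
  have hwalk := walk_up_le c up (k : ℤ) T hinj C0
  have hsub1 : (S.erase w).filter (fun q => leftCount P w q = k) ⊆
      T.filter (fun i => up i ∧ walkL c up T C0 (c i) = (k : ℤ)) := by
    intro q hq
    have hqS := mem_filter.mp hq
    have hqS' := mem_erase.mp hqS.1
    have hneg : Φ q < 0 := by
      have := hext q hqS'.2 hqS'.1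
      simp only [hΦ]
      nlinarith
    have hqT : q ∈ T := mem_filter.mpr ⟨mem_erase.mpr ⟨hqS'.1, hS hqS'.2⟩, hneg.ne⟩
    refine mem_filter.mpr ⟨hqT, hneg, ?_⟩
    rw [← hleft_out q hqT hneg, hqS.2]
  have hsub2 : T.filter (fun i => ¬ up i ∧ walkL c up T C0 (c i) = (k : ℤ)) ⊆
      (P \ S).filter (fun q => leftCount P q w = k) := by
    intro q hq
    have hq' := mem_filter.mp hq
    have hqT := mem_filter.mp hq'.1
    have hqE := mem_erase.mp hqT.1
    have hpos : 0 < Φ q := lt_of_le_of_ne (not_lt.mp hq'.2.1) (Ne.symm hqT.2)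
    refine mem_filter.mpr ⟨mem_sdiff.mpr ⟨hqE.2, ?_⟩, ?_⟩
    · intro hqS
      have := hext q hqS hqE.1
      simp only [hΦ] at hpos
      nlinarith
    · have := hleft_in q hq'.1 hpos
      rw [hq'.2.2] at this
      exact_mod_cast this
  calc ((S.erase w).filter (fun q => leftCount P w q = k)).card
      ≤ (T.filter (fun i => up i ∧ walkL c up T C0 (c i) = (k : ℤ))).card := card_le_card hsub1
    _ ≤ (T.filter (fun i => ¬ up i ∧ walkL c up T C0 (c i) = (k : ℤ))).card + 1 := hwalk
    _ ≤ ((P \ S).filter (fun q => leftCount P q w = k)).card + 1 := by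
        have := card_le_card hsub2
        omega

open Classical in
/-- The mirror image of `alternation_out`: incoming edges from `S` against outgoing edges to the
complement of `S`. -/
theorem alternation_in (P : Finset (ℝ × ℝ)) (hP : NoThreeCollinear P) (w : ℝ × ℝ) (hw : w ∈ P)
    (S : Finset (ℝ × ℝ)) (hS : S ⊆ P) (α β : ℝ)
    (hext : ∀ q ∈ S, q ≠ w → α * q.1 + β * q.2 < α * w.1 + β * w.2) (k : ℕ) :
    ((S.erase w).filter (fun q => leftCount P q w = k)).card ≤
      ((P \ S).filter (fun q => leftCount P w q = k)).card + 1 := by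
  by_cases h0 : α ^ 2 + β ^ 2 = 0
  · have hα : α = 0 := by nlinarith [sq_nonneg α, sq_nonneg β]
    have hβ : β = 0 := by nlinarith [sq_nonneg α, sq_nonneg β]
    have : (S.erase w).filter (fun q => leftCount P q w = k) = ∅ := by
      apply filter_eq_empty_iff.mpr
      intro q hq
      have := hext q (mem_of_mem_erase hq) (ne_of_mem_erase hq)
      simp [hα, hβ] at this
    rw [this]
    simp
  have hD : 0 < α ^ 2 + β ^ 2 := lt_of_le_of_ne (by positivity) (Ne.symm h0)
  set Φ : ℝ × ℝ → ℝ := fun x => α * (x.1 - w.1) + β * (x.2 - w.2) with hΦ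
  set Ξ : ℝ × ℝ → ℝ := fun x => β * (x.1 - w.1) - α * (x.2 - w.2) with hΞ
  have hid : ∀ q x, (α ^ 2 + β ^ 2) * orient w q x = Ξ q * Φ x - Φ q * Ξ x := by
    intro q x
    simp only [orient, hΦ, hΞ]
    ring
  set T : Finset (ℝ × ℝ) := (P.erase w).filter (fun x => Φ x ≠ 0) with hT
  set c : ℝ × ℝ → ℝ := fun x => Ξ x / Φ x with hc
  set up : ℝ × ℝ → Prop := fun x => 0 < Φ x with hup
  set C0 : ℤ := (((P.erase w).filter (fun x => Φ x = 0 ∧ Ξ x < 0)).card : ℤ) with hC0
  have hinj : Set.InjOn c (T : Set (ℝ × ℝ)) := by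
    intro a ha b hb hab
    have ha' := mem_filter.mp (mem_coe.mp ha)
    have hb' := mem_filter.mp (mem_coe.mp hb)
    by_contra hne
    have haP := mem_of_mem_erase ha'.1
    have hbP := mem_of_mem_erase hb'.1
    have hwa : w ≠ a := (ne_of_mem_erase ha'.1).symm
    have hwb : w ≠ b := (ne_of_mem_erase hb'.1).symm
    have h := hP w hw a haP b hbP hwa hwb hne
    apply h
    have h2 : Ξ a / Φ a = Ξ b / Φ b := hab
    rw [div_eq_div_iff ha'.2 hb'.2] at h2
    have h3 := hid a b
    have h4 : (α ^ 2 + β ^ 2) * orient w a b = 0 := by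
      rw [h3]
      linarith
    exact (mul_eq_zero.mp h4).resolve_left h0
  have hL : ∀ x : ℝ, ((((P.erase w).filter (fun y => Ξ y < x * Φ y)).card : ℕ) : ℤ) =
      walkL c up T C0 x := by
    intro x
    have hsplit : (P.erase w).filter (fun y => Ξ y < x * Φ y) =
        ((P.erase w).filter (fun y => Φ y = 0 ∧ Ξ y < 0)) ∪
        (T.filter (fun j => ¬ up j ∧ x < c j)) ∪ (T.filter (fun j => up j ∧ c j < x)) := by
      ext y
      simp only [mem_filter, mem_union, hT, hup, hc]
      constructor
      · rintro ⟨hy, hxy⟩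
        rcases lt_trichotomy (Φ y) 0 with hneg | hzero | hpos
        · left; right
          refine ⟨⟨hy, hneg.ne⟩, not_lt.mpr hneg.le, ?_⟩
          rw [lt_div_iff_of_neg hneg]
          exact hxy
        · left; left
          refine ⟨hy, hzero, ?_⟩
          simpa [hzero] using hxy
        · right
          refine ⟨⟨hy, hpos.ne'⟩, hpos, ?_⟩
          rw [div_lt_iff₀ hpos]
          exact hxy
      · rintro (((⟨hy, hzero, hneg⟩ | ⟨⟨hy, hne⟩, hnot, hlt⟩)) | ⟨⟨hy, hne⟩, hpos, hlt⟩)
        · exact ⟨hy, by simpa [hzero] using hneg⟩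
        · refine ⟨hy, ?_⟩
          have hneg : Φ y < 0 := lt_of_le_of_ne (not_lt.mp hnot) hne
          rwa [lt_div_iff_of_neg hneg] at hlt
        · refine ⟨hy, ?_⟩
          rwa [div_lt_iff₀ hpos] at hlt
    rw [hsplit]
    have hd1 : Disjoint ((P.erase w).filter (fun y => Φ y = 0 ∧ Ξ y < 0))
        (T.filter (fun j => ¬ up j ∧ x < c j)) := by
      rw [disjoint_left]
      intro y hy hy'
      have h1 := (mem_filter.mp hy).2.1
      have h2 := (mem_filter.mp (mem_filter.mp hy').1).2
      exact h2 h1
    have hd2 : Disjoint (((P.erase w).filter (fun y => Φ y = 0 ∧ Ξ y < 0)) ∪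
        (T.filter (fun j => ¬ up j ∧ x < c j))) (T.filter (fun j => up j ∧ c j < x)) := by
      rw [disjoint_left]
      intro y hy hy'
      rcases mem_union.mp hy with hy | hy
      · have h1 := (mem_filter.mp hy).2.1
        have h2 := (mem_filter.mp (mem_filter.mp hy').1).2
        exact h2 h1
      · exact (mem_filter.mp hy).2.1 (mem_filter.mp hy').2.1
    rw [card_union_of_disjoint hd2, card_union_of_disjoint hd1]
    unfold walkL
    push_cast
    ring
  -- left counts as levels
  have hleft_in : ∀ q ∈ T, Φ q < 0 → (leftCount P q w : ℤ) = walkL c up T C0 (c q) := by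
    intro q hq hneg
    rw [← hL]
    unfold leftCount
    congr 2
    ext y
    simp only [mem_filter, mem_erase]
    have hswap : orient q w y = - orient w q y := by
      simp only [orient]
      ring
    constructor
    · rintro ⟨hyP, hy⟩
      have hyw : y ≠ w := by
        rintro rfl
        simp [orient] at hy
        nlinarith
      refine ⟨⟨hyw, hyP⟩, ?_⟩
      rw [hswap] at hy
      have h1 := hid q y
      have hh : Ξ q * Φ y - Φ q * Ξ y < 0 := by
        rw [← h1]
        exact mul_neg_of_pos_of_neg hD (by linarith)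
      simp only [hc]
      rw [div_mul_eq_mul_div, lt_div_iff_of_neg hneg]
      linarith
    · rintro ⟨⟨hyw, hyP⟩, hy⟩
      refine ⟨hyP, ?_⟩
      simp only [hc] at hy
      rw [div_mul_eq_mul_div, lt_div_iff_of_neg hneg] at hy
      rw [hswap]
      have h1 := hid q y
      have hh : (α ^ 2 + β ^ 2) * orient w q y < 0 := by
        rw [h1]
        linarith
      have : orient w q y < 0 := by
        by_contra hnn
        have := mul_nonneg hD.le (not_lt.mp hnn)
        linarith
      linarith
  have hleft_out : ∀ q ∈ T, 0 < Φ q → (leftCount P w q : ℤ) = walkL c up T C0 (c q) := by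
    intro q hq hpos
    rw [← hL]
    unfold leftCount
    congr 2
    ext y
    simp only [mem_filter, mem_erase]
    constructor
    · rintro ⟨hyP, hy⟩
      have hyw : y ≠ w := by
        rintro rfl
        simp [orient] at hy
      refine ⟨⟨hyw, hyP⟩, ?_⟩
      have h1 := hid q y
      have hh : 0 < Ξ q * Φ y - Φ q * Ξ y := by
        rw [← h1]
        exact mul_pos hD hy
      simp only [hc]
      rw [div_mul_eq_mul_div, lt_div_iff₀ hpos]
      linarith
    · rintro ⟨⟨hyw, hyP⟩, hy⟩
      refine ⟨hyP, ?_⟩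
      simp only [hc] at hy
      rw [div_mul_eq_mul_div, lt_div_iff₀ hpos] at hy
      have h1 := hid q y
      have hh : 0 < (α ^ 2 + β ^ 2) * orient w q y := by
        rw [h1]
        linarith
      exact (pos_iff_pos_of_mul_pos hh).mp hD
  -- the main count
  have hwalk := walk_down_le c up (k : ℤ) T hinj C0
  have hsub1 : (S.erase w).filter (fun q => leftCount P q w = k) ⊆
      T.filter (fun i => ¬ up i ∧ walkL c up T C0 (c i) = (k : ℤ)) := by
    intro q hq
    have hqS := mem_filter.mp hq
    have hqS' := mem_erase.mp hqS.1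
    have hneg : Φ q < 0 := by
      have := hext q hqS'.2 hqS'.1
      simp only [hΦ]
      nlinarith
    have hqT : q ∈ T := mem_filter.mpr ⟨mem_erase.mpr ⟨hqS'.1, hS hqS'.2⟩, hneg.ne⟩
    refine mem_filter.mpr ⟨hqT, not_lt.mpr hneg.le, ?_⟩
    rw [← hleft_in q hqT hneg, hqS.2]
  have hsub2 : T.filter (fun i => up i ∧ walkL c up T C0 (c i) = (k : ℤ)) ⊆
      (P \ S).filter (fun q => leftCount P w q = k) := by
    intro q hq
    have hq' := mem_filter.mp hq
    have hqT := mem_filter.mp hq'.1
    have hqE := mem_erase.mp hqT.1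
    have hpos : 0 < Φ q := hq'.2.1
    refine mem_filter.mpr ⟨mem_sdiff.mpr ⟨hqE.2, ?_⟩, ?_⟩
    · intro hqS
      have := hext q hqS hqE.1
      simp only [hΦ] at hpos
      nlinarith
    · have := hleft_out q hq'.1 hpos
      rw [hq'.2.2] at this
      exact_mod_cast this
  calc ((S.erase w).filter (fun q => leftCount P q w = k)).card
      ≤ (T.filter (fun i => ¬ up i ∧ walkL c up T C0 (c i) = (k : ℤ))).card := card_le_card hsub1
    _ ≤ (T.filter (fun i => up i ∧ walkL c up T C0 (c i) = (k : ℤ))).card + 1 := hwalk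
    _ ≤ ((P \ S).filter (fun q => leftCount P w q = k)).card + 1 := by
        have := card_le_card hsub2
        omega

end Vale.Agent.Lib.P065
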