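import Mathlib
import Vale.Agent.Lib.P065.Defs
import Vale.Agent.Lib.P065.Alternation

namespace Vale.Agent.Lib.P065

open Finset

section graph

variable {α : Type*} [DecidableEq α]

open Classical in
/-- Discharging: forward edges are bounded by a weight sum. -/
theorem graph_bound (V : Finset α) (R : α → α → Prop) (lay : α → ℕ) (A : ℕ → ℕ)
    (hA : ∀ x ∈ V, ∀ y ∈ V, lay x < lay y → A (lay y) + 1 ≤ A (lay x))
    (h1 : ∀ w ∈ V, (V.filter (fun v => R w v ∧ lay w ≤ lay v)).card ≤
      (V.filter (fun u => R u w ∧ lay u < lay w)).card + 1) :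
    ((V ×ˢ V).filter (fun e => R e.1 e.2 ∧ lay e.1 < lay e.2)).card ≤ ∑ w ∈ V, A (lay w) := by
  -- the three double sums
  set cnt : ℕ := ∑ w ∈ V, ∑ v ∈ V, if R w v ∧ lay w < lay v then 1 else 0 with hcnt
  set D1 : ℕ := ∑ w ∈ V, ∑ v ∈ V, if R w v ∧ lay w < lay v then A (lay w) else 0 with hD1
  set D2 : ℕ := ∑ w ∈ V, ∑ v ∈ V, if R w v ∧ lay w < lay v then A (lay v) else 0 with hD2
  have hcard : ((V ×ˢ V).filter (fun e => R e.1 e.2 ∧ lay e.1 < lay e.2)).card = cnt := by
    rw [card_filter, sum_product]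
  have h2 : D2 + cnt ≤ D1 := by
    rw [hD2, hcnt, hD1, ← sum_add_distrib]
    apply sum_le_sum
    intro w hw
    rw [← sum_add_distrib]
    apply sum_le_sum
    intro v hv
    by_cases h : R w v ∧ lay w < lay v
    · simp only [if_pos h]
      exact hA w hw v hv h.2
    · simp [if_neg h]
  have h3 : D1 ≤ D2 + ∑ w ∈ V, A (lay w) := by
    have hsum : ∀ w ∈ V, A (lay w) * (V.filter (fun v => R w v ∧ lay w ≤ lay v)).card ≤
        A (lay w) * (V.filter (fun u => R u w ∧ lay u < lay w)).card + A (lay w) := by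
      intro w hw
      calc A (lay w) * (V.filter (fun v => R w v ∧ lay w ≤ lay v)).card
          ≤ A (lay w) * ((V.filter (fun u => R u w ∧ lay u < lay w)).card + 1) :=
            Nat.mul_le_mul_left _ (h1 w hw)
        _ = _ := by ring
    have hleft : D1 ≤ ∑ w ∈ V, A (lay w) * (V.filter (fun v => R w v ∧ lay w ≤ lay v)).card := by
      rw [hD1]
      apply sum_le_sum
      intro w _
      rw [card_filter, mul_sum]
      apply sum_le_sum
      intro v _
      by_cases h : R w v ∧ lay w < lay v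
      · have h' : R w v ∧ lay w ≤ lay v := ⟨h.1, h.2.le⟩
        simp [if_pos h, if_pos h']
      · simp [if_neg h]
    have hright : ∑ w ∈ V, A (lay w) * (V.filter (fun u => R u w ∧ lay u < lay w)).card = D2 := by
      rw [hD2]
      rw [sum_comm]
      apply sum_congr rfl
      intro w _
      rw [card_filter, mul_sum]
      apply sum_congr rfl
      intro u _
      by_cases h : R u w ∧ lay u < lay w
      · simp [if_pos h]
      · simp [if_neg h]
    calc D1 ≤ ∑ w ∈ V, A (lay w) * (V.filter (fun v => R w v ∧ lay w ≤ lay v)).card := hleft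
      _ ≤ ∑ w ∈ V, (A (lay w) * (V.filter (fun u => R u w ∧ lay u < lay w)).card + A (lay w)) :=
          sum_le_sum hsum
      _ = D2 + ∑ w ∈ V, A (lay w) := by rw [sum_add_distrib, hright]
  rw [hcard]
  omega

open Classical in
/-- Edges inside a common layer. -/
theorem graph_bound_eq (V : Finset α) (R : α → α → Prop) (lay : α → ℕ)
    (h1 : ∀ w ∈ V, (V.filter (fun v => R w v ∧ lay w ≤ lay v)).card ≤
      (V.filter (fun u => R u w ∧ lay u < lay w)).card + 1) :
    ((V ×ˢ V).filter (fun e => R e.1 e.2 ∧ lay e.1 = lay e.2)).card ≤ V.card := by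
  have hsum := sum_le_sum h1
  simp only [sum_add_distrib, sum_const, smul_eq_mul, mul_one] at hsum
  have e1 : ∑ w ∈ V, (V.filter (fun v => R w v ∧ lay w ≤ lay v)).card =
      ((V ×ˢ V).filter (fun e => R e.1 e.2 ∧ lay e.1 ≤ lay e.2)).card := by
    rw [card_filter, sum_product]
    apply sum_congr rfl
    intro w _
    rw [card_filter]
  have e2 : ∑ w ∈ V, (V.filter (fun u => R u w ∧ lay u < lay w)).card =
      ((V ×ˢ V).filter (fun e => R e.1 e.2 ∧ lay e.1 < lay e.2)).card := by
    rw [card_filter, sum_product, sum_comm]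
    apply sum_congr rfl
    intro w _
    rw [card_filter]
  have e3 : ((V ×ˢ V).filter (fun e => R e.1 e.2 ∧ lay e.1 ≤ lay e.2)).card =
      ((V ×ˢ V).filter (fun e => R e.1 e.2 ∧ lay e.1 < lay e.2)).card +
      ((V ×ˢ V).filter (fun e => R e.1 e.2 ∧ lay e.1 = lay e.2)).card := by
    rw [← card_union_of_disjoint]
    · congr 1
      ext e
      simp only [mem_filter, mem_union]
      constructor
      · rintro ⟨h, hR, hle⟩
        rcases lt_or_eq_of_le hle with hlt | heq
        · exact Or.inl ⟨h, hR, hlt⟩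
        · exact Or.inr ⟨h, hR, heq⟩
      · rintro (⟨h, hR, hlt⟩ | ⟨h, hR, heq⟩)
        · exact ⟨h, hR, hlt.le⟩
        · exact ⟨h, hR, heq.le⟩
    · rw [disjoint_left]
      intro e he he'
      have h1 := (mem_filter.mp he).2.2
      have h2 := (mem_filter.mp he').2.2
      omega
  rw [e1, e2, e3] at hsum
  omega

end graph

/-- Ordered pairs at level `k`: directed edges with exactly `k` points on their left. -/
noncomputable def levelEdges (P : Finset (ℝ × ℝ)) (k : ℕ) : Finset ((ℝ × ℝ) × (ℝ × ℝ)) :=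
  open Classical in (P ×ˢ P).filter (fun e => e.1 ≠ e.2 ∧ leftCount P e.1 e.2 = k)

open Classical in
/-- A layer function gives the bound on level edges. -/
theorem levelEdges_card_le (P : Finset (ℝ × ℝ)) (hP : NoThreeCollinear P) (lay : ℝ × ℝ → ℕ)
    (t : ℕ) (hlay : ∀ x ∈ P, lay x < t)
    (hext : ∀ w ∈ P, ∃ α β : ℝ, ∀ q ∈ P, lay w ≤ lay q → q ≠ w →
      α * q.1 + β * q.2 < α * w.1 + β * w.2) (k : ℕ) :
    (levelEdges P k).card ≤ P.card + 2 * ∑ w ∈ P, (t - 1 - lay w) := by
  obtain ⟨R, hR⟩ : ∃ R : ℝ × ℝ → ℝ × ℝ → Prop, R = fun u v => u ≠ v ∧ leftCount P u v = k :=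
    ⟨_, rfl⟩
  obtain ⟨R', hR'⟩ : ∃ R' : ℝ × ℝ → ℝ × ℝ → Prop, R' = fun v u => u ≠ v ∧ leftCount P u v = k :=
    ⟨_, rfl⟩
  have hout : ∀ w ∈ P, (P.filter (fun v => R w v ∧ lay w ≤ lay v)).card ≤
      (P.filter (fun u => R u w ∧ lay u < lay w)).card + 1 := by
    intro w hw
    obtain ⟨α, β, h⟩ := hext w hw
    set S := P.filter (fun q => lay w ≤ lay q) with hS
    have hSP : S ⊆ P := filter_subset _ _
    have hext' : ∀ q ∈ S, q ≠ w → α * q.1 + β * q.2 < α * w.1 + β * w.2 := by
      intro q hq hne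
      exact h q (mem_filter.mp hq).1 (mem_filter.mp hq).2 hne
    have := alternation_out P hP w hw S hSP α β hext' k
    have e1 : P.filter (fun v => R w v ∧ lay w ≤ lay v) =
        (S.erase w).filter (fun q => leftCount P w q = k) := by
      ext v
      simp only [mem_filter, mem_erase, hS, hR]
      constructor
      · rintro ⟨hv, ⟨hne, hk⟩, hl⟩
        exact ⟨⟨hne.symm, hv, hl⟩, hk⟩
      · rintro ⟨⟨hne, hv, hl⟩, hk⟩
        exact ⟨hv, ⟨hne.symm, hk⟩, hl⟩
    have e2 : (P \ S).filter (fun q => leftCount P q w = k) ⊆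
        P.filter (fun u => R u w ∧ lay u < lay w) := by
      intro u hu
      simp only [mem_filter, mem_sdiff, hS] at hu
      obtain ⟨⟨huP, hnot⟩, hk⟩ := hu
      have hlt : lay u < lay w := by
        by_contra hge
        exact hnot ⟨huP, not_lt.mp hge⟩
      have hne : u ≠ w := by
        rintro rfl
        exact lt_irrefl _ hlt
      refine mem_filter.mpr ⟨huP, ?_, hlt⟩
      rw [hR]
      exact ⟨hne, hk⟩
    have e3 := card_le_card e2
    rw [e1]
    omega
  have hin : ∀ w ∈ P, (P.filter (fun v => R' w v ∧ lay w ≤ lay v)).card ≤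
      (P.filter (fun u => R' u w ∧ lay u < lay w)).card + 1 := by
    intro w hw
    obtain ⟨α, β, h⟩ := hext w hw
    set S := P.filter (fun q => lay w ≤ lay q) with hS
    have hSP : S ⊆ P := filter_subset _ _
    have hext' : ∀ q ∈ S, q ≠ w → α * q.1 + β * q.2 < α * w.1 + β * w.2 := by
      intro q hq hne
      exact h q (mem_filter.mp hq).1 (mem_filter.mp hq).2 hne
    have := alternation_in P hP w hw S hSP α β hext' k
    have e1 : P.filter (fun v => R' w v ∧ lay w ≤ lay v) =
        (S.erase w).filter (fun q => leftCount P q w = k) := by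
      ext v
      simp only [mem_filter, mem_erase, hS, hR']
      constructor
      · rintro ⟨hv, ⟨hne, hk⟩, hl⟩
        exact ⟨⟨hne, hv, hl⟩, hk⟩
      · rintro ⟨⟨hne, hv, hl⟩, hk⟩
        exact ⟨hv, ⟨hne, hk⟩, hl⟩
    have e2 : (P \ S).filter (fun q => leftCount P w q = k) ⊆
        P.filter (fun u => R' u w ∧ lay u < lay w) := by
      intro u hu
      simp only [mem_filter, mem_sdiff, hS] at hu
      obtain ⟨⟨huP, hnot⟩, hk⟩ := hu
      have hlt : lay u < lay w := by
        by_contra hge
        exact hnot ⟨huP, not_lt.mp hge⟩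
      have hne : w ≠ u := by
        rintro rfl
        exact lt_irrefl _ hlt
      refine mem_filter.mpr ⟨huP, ?_, hlt⟩
      rw [hR']
      exact ⟨hne, hk⟩
    have e3 := card_le_card e2
    rw [e1]
    omega
  have hAw : ∀ x ∈ P, ∀ y ∈ P, lay x < lay y → (t - 1 - lay y) + 1 ≤ (t - 1 - lay x) := by
    intro x hx y hy hxy
    have := hlay y hy
    omega
  have b1 := graph_bound P R lay (fun j => t - 1 - j) hAw hout
  have b2 := graph_bound P R' lay (fun j => t - 1 - j) hAw hin
  have b3 := graph_bound_eq P R lay hout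
  -- split the level edges by the order of the layers
  have hsplit : (levelEdges P k).card ≤
      ((P ×ˢ P).filter (fun e => R e.1 e.2 ∧ lay e.1 < lay e.2)).card +
      ((P ×ˢ P).filter (fun e => R' e.1 e.2 ∧ lay e.1 < lay e.2)).card +
      ((P ×ˢ P).filter (fun e => R e.1 e.2 ∧ lay e.1 = lay e.2)).card := by
    have hswap : ((P ×ˢ P).filter (fun e => R' e.1 e.2 ∧ lay e.1 < lay e.2)).card =
        ((P ×ˢ P).filter (fun e => R e.1 e.2 ∧ lay e.2 < lay e.1)).card := by
      apply card_bij (fun e _ => (e.2, e.1))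
      · intro e he
        simp only [mem_filter, mem_product, hR, hR'] at he ⊢
        exact ⟨⟨he.1.2, he.1.1⟩, he.2.1, he.2.2⟩
      · intro e _ e' _ h
        simp only [Prod.mk.injEq] at h
        exact Prod.ext h.2 h.1
      · intro e he
        simp only [mem_filter, mem_product, hR, hR'] at he
        refine ⟨(e.2, e.1), ?_, rfl⟩
        simp only [mem_filter, mem_product, hR, hR']
        exact ⟨⟨he.1.2, he.1.1⟩, he.2.1, he.2.2⟩
    rw [hswap]
    have hsub : levelEdges P k ⊆
        ((P ×ˢ P).filter (fun e => R e.1 e.2 ∧ lay e.1 < lay e.2)) ∪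
        ((P ×ˢ P).filter (fun e => R e.1 e.2 ∧ lay e.2 < lay e.1)) ∪
        ((P ×ˢ P).filter (fun e => R e.1 e.2 ∧ lay e.1 = lay e.2)) := by
      intro e he
      simp only [levelEdges, mem_filter, mem_union, hR] at he ⊢
      rcases lt_trichotomy (lay e.1) (lay e.2) with h | h | h
      · exact Or.inl (Or.inl ⟨he.1, he.2, h⟩)
      · exact Or.inr ⟨he.1, he.2, h⟩
      · exact Or.inl (Or.inr ⟨he.1, he.2, h⟩)
    calc (levelEdges P k).card ≤ _ := card_le_card hsub
      _ ≤ _ := card_union_le _ _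
      _ ≤ _ := by
          have := card_union_le
            ((P ×ˢ P).filter (fun e => R e.1 e.2 ∧ lay e.1 < lay e.2))
            ((P ×ˢ P).filter (fun e => R e.1 e.2 ∧ lay e.2 < lay e.1))
          omega
  omega

end Vale.Agent.Lib.P065
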