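import Mathlib
import Vale.Agent.Lib.P065.Defs
import Vale.Agent.Lib.P065.Layers

namespace Vale.Agent.Lib.P065

open Finset

/-- A vertex of the convex hull of a finite set is the strict maximum of a linear functional. -/
theorem functional_of_extreme (S : Finset (ℝ × ℝ)) (x : ℝ × ℝ)
    (hx : x ∈ (convexHull ℝ (S : Set (ℝ × ℝ))).extremePoints ℝ) :
    ∃ α β : ℝ, ∀ q ∈ S, q ≠ x → α * q.1 + β * q.2 < α * x.1 + β * x.2 := by
  have hconv : Convex ℝ (convexHull ℝ (S : Set (ℝ × ℝ))) := convex_convexHull ℝ _
  rw [hconv.mem_extremePoints_iff_mem_sdiff_convexHull_sdiff] at hx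
  obtain ⟨_, hxnot⟩ := hx
  set B : Set (ℝ × ℝ) := convexHull ℝ ((S : Set (ℝ × ℝ)) \ {x}) with hB
  have hsub : B ⊆ convexHull ℝ (convexHull ℝ (S : Set (ℝ × ℝ)) \ {x}) :=
    convexHull_mono (Set.sdiff_subset_sdiff_left (subset_convexHull ℝ _))
  have hxB : x ∉ B := fun h => hxnot (hsub h)
  have hcomp : IsCompact B := (S.finite_toSet.subset Set.sdiff_subset).isCompact_convexHull ℝ
  obtain ⟨f, u, h1, h2⟩ := geometric_hahn_banach_point_closed (convex_convexHull ℝ _)
    hcomp.isClosed hxB
  have hf : ∀ q : ℝ × ℝ, f q = f (1, 0) * q.1 + f (0, 1) * q.2 := by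
    intro q
    have : q = q.1 • ((1 : ℝ), (0 : ℝ)) + q.2 • ((0 : ℝ), (1 : ℝ)) := by
      ext <;> simp
    conv_lhs => rw [this]
    rw [map_add, map_smul, map_smul]
    simp only [smul_eq_mul]
    ring
  refine ⟨- f (1, 0), - f (0, 1), ?_⟩
  intro q hq hne
  have hqB : q ∈ B := subset_convexHull ℝ _ ⟨mem_coe.mpr hq, by simpa using hne⟩
  have := h2 q hqB
  rw [hf q] at this
  rw [hf x] at h1
  nlinarith

open Classical in
/-- The bound on level edges in terms of a peeling chain. -/
theorem levelEdges_chain (P : Finset (ℝ × ℝ)) (hP : NoThreeCollinear P) (t : ℕ)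
    (S : ℕ → Finset (ℝ × ℝ)) (hS0 : S 0 = P) (hSt : S t = ∅)
    (hmono : ∀ j < t, S (j + 1) ⊆ S j)
    (hext : ∀ j < t, ∀ x ∈ S j \ S (j + 1), x ∈ (convexHull ℝ (S j : Set (ℝ × ℝ))).extremePoints ℝ)
    (k : ℕ) :
    (levelEdges P k).card ≤ P.card + 2 * ∑ j ∈ Ico 1 t, (P \ S j).card := by
  have hanti : ∀ j, j ≤ t → ∀ i, i ≤ j → S j ⊆ S i := by
    intro j
    induction j with
    | zero =>
      intro _ i hi
      have : i = 0 := by omega
      rw [this]
    | succ j ih =>
      intro hj i hi
      by_cases h : i ≤ j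
      · exact (hmono j (by omega)).trans (ih (by omega) i h)
      · have : i = j + 1 := by omega
        rw [this]
  set lay : ℝ × ℝ → ℕ := fun x => Nat.findGreatest (fun j => x ∈ S j) t with hlay
  have hlay_spec : ∀ x ∈ P, x ∈ S (lay x) := by
    intro x hx
    exact Nat.findGreatest_spec (P := fun j => x ∈ S j) (m := 0) (Nat.zero_le t)
      (by rw [hS0]; exact hx)
  have hlay_le : ∀ x, lay x ≤ t := fun x => Nat.findGreatest_le t
  have hlay_lt : ∀ x ∈ P, lay x < t := by
    intro x hx
    refine lt_of_le_of_ne (hlay_le x) ?_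
    intro h
    have := hlay_spec x hx
    rw [h, hSt] at this
    simp at this
  have hmem_iff : ∀ x ∈ P, ∀ j, j ≤ t → (x ∈ S j ↔ j ≤ lay x) := by
    intro x hx j hj
    constructor
    · intro h
      exact Nat.le_findGreatest hj h
    · intro h
      exact hanti (lay x) (hlay_le x) j h (hlay_spec x hx)
  have hext' : ∀ w ∈ P, ∃ α β : ℝ, ∀ q ∈ P, lay w ≤ lay q → q ≠ w →
      α * q.1 + β * q.2 < α * w.1 + β * w.2 := by
    intro w hw
    have hlt := hlay_lt w hw
    have hwS : w ∈ S (lay w) \ S (lay w + 1) := by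
      refine mem_sdiff.mpr ⟨hlay_spec w hw, ?_⟩
      intro h
      have := (hmem_iff w hw (lay w + 1) (by omega)).mp h
      omega
    obtain ⟨α, β, h⟩ := functional_of_extreme (S (lay w)) w (hext (lay w) hlt w hwS)
    refine ⟨α, β, ?_⟩
    intro q hq hle hne
    exact h q ((hmem_iff q hq (lay w) (by omega)).mpr hle) hne
  have hbound := levelEdges_card_le P hP lay t hlay_lt hext' k
  have hsum : ∑ w ∈ P, (t - 1 - lay w) = ∑ j ∈ Ico 1 t, (P \ S j).card := by
    have h1 : ∀ j ∈ Ico 1 t, (P \ S j).card = ∑ w ∈ P, if lay w < j then 1 else 0 := by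
      intro j hj
      have hj' := mem_Ico.mp hj
      rw [← card_filter]
      congr 1
      ext w
      simp only [mem_sdiff, mem_filter]
      constructor
      · rintro ⟨hw, hnot⟩
        refine ⟨hw, ?_⟩
        by_contra hge
        exact hnot ((hmem_iff w hw j hj'.2.le).mpr (not_lt.mp hge))
      · rintro ⟨hw, hlt⟩
        refine ⟨hw, ?_⟩
        intro h
        have := (hmem_iff w hw j hj'.2.le).mp h
        omega
    rw [sum_congr rfl h1, sum_comm]
    apply sum_congr rfl
    intro w hw
    rw [← card_filter]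
    have : (Ico 1 t).filter (fun j => lay w < j) = Ico (lay w + 1) t := by
      ext j
      simp only [mem_filter, mem_Ico]
      omega
    rw [this, Nat.card_Ico]
    omega
  rw [hsum] at hbound
  exact hbound

/-- `orient` is antisymmetric in its first two arguments. -/
lemma orient_swap (a b x : ℝ × ℝ) : orient b a x = - orient a b x := by
  simp only [orient]
  ring

lemma leftCount_add_leftCount (P : Finset (ℝ × ℝ)) (hP : NoThreeCollinear P) (a b : ℝ × ℝ)
    (ha : a ∈ P) (hb : b ∈ P) (hab : a ≠ b) :
    leftCount P a b + leftCount P b a + 2 = P.card := by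
  classical
  unfold leftCount
  have hsplit : P = (P.filter (fun x => 0 < orient a b x)) ∪ (P.filter (fun x => 0 < orient b a x))
      ∪ {a, b} := by
    ext x
    simp only [mem_union, mem_filter, mem_insert, mem_singleton]
    constructor
    · intro hx
      by_cases hxa : x = a
      · exact Or.inr (Or.inl hxa)
      by_cases hxb : x = b
      · exact Or.inr (Or.inr hxb)
      have hne := hP a ha b hb x hx hab (Ne.symm hxa) (Ne.symm hxb)
      rcases lt_or_gt_of_ne hne with h | h
      · refine Or.inl (Or.inr ⟨hx, ?_⟩)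
        rw [orient_swap]
        linarith
      · exact Or.inl (Or.inl ⟨hx, h⟩)
    · rintro ((⟨hx, _⟩ | ⟨hx, _⟩) | (rfl | rfl))
      · exact hx
      · exact hx
      · exact ha
      · exact hb
  have hd1 : Disjoint (P.filter (fun x => 0 < orient a b x))
      (P.filter (fun x => 0 < orient b a x)) := by
    rw [disjoint_left]
    intro x hx hx'
    have h1 := (mem_filter.mp hx).2
    have h2 := (mem_filter.mp hx').2
    rw [orient_swap] at h2
    linarith
  have hd2 : Disjoint ((P.filter (fun x => 0 < orient a b x)) ∪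
      (P.filter (fun x => 0 < orient b a x))) ({a, b} : Finset (ℝ × ℝ)) := by
    rw [disjoint_left]
    intro x hx hx'
    rcases mem_insert.mp hx' with rfl | hx'
    · rcases mem_union.mp hx with h | h
      · have := (mem_filter.mp h).2
        simp [orient] at this
      · have := (mem_filter.mp h).2
        rw [orient_swap] at this
        simp [orient] at this
    · have hxb := mem_singleton.mp hx'
      subst hxb
      rcases mem_union.mp hx with h | h
      · have := (mem_filter.mp h).2
        simp only [orient] at this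
        nlinarith
      · have := (mem_filter.mp h).2
        simp [orient] at this
  have hc : P.card = (P.filter (fun x => 0 < orient a b x)).card +
      (P.filter (fun x => 0 < orient b a x)).card + ({a, b} : Finset (ℝ × ℝ)).card := by
    conv_lhs => rw [hsplit]
    rw [card_union_of_disjoint hd2, card_union_of_disjoint hd1]
  rw [hc, card_pair hab]

open Classical in
/-- Twice the number of halving pairs is at most the number of level edges. -/
theorem two_halving_le (P : Finset (ℝ × ℝ)) (hP : NoThreeCollinear P) :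
    2 * (halvingPairs P).card ≤ (levelEdges P ((P.card - 2) / 2)).card := by
  set k := (P.card - 2) / 2 with hk
  set E := (levelEdges P k).filter (fun e => ({e.1, e.2} : Finset (ℝ × ℝ)) ∈ halvingPairs P) with hE
  have hmaps : ∀ e ∈ E, ({e.1, e.2} : Finset (ℝ × ℝ)) ∈ halvingPairs P :=
    fun e he => (mem_filter.mp he).2
  have hcard := card_eq_sum_card_fiberwise hmaps
  have hfiber : ∀ s ∈ halvingPairs P, 2 ≤ (E.filter (fun e => ({e.1, e.2} : Finset (ℝ × ℝ)) = s)).card := by
    intro s hs
    have hs' := mem_filter.mp hs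
    obtain ⟨a, b, rfl, hab, heq⟩ := hs'.2
    have hsub := (mem_powersetCard.mp hs'.1).1
    have ha : a ∈ P := hsub (mem_insert_self a {b})
    have hb : b ∈ P := hsub (mem_insert_of_mem (mem_singleton_self b))
    have hsum := leftCount_add_leftCount P hP a b ha hb hab
    have hab_k : leftCount P a b = k := by omega
    have hba_k : leftCount P b a = k := by omega
    have h1 : (a, b) ∈ E.filter (fun e => ({e.1, e.2} : Finset (ℝ × ℝ)) = {a, b}) := by
      refine mem_filter.mpr ⟨mem_filter.mpr ⟨?_, hs⟩, rfl⟩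
      unfold levelEdges
      exact mem_filter.mpr ⟨mem_product.mpr ⟨ha, hb⟩, hab, hab_k⟩
    have h2 : (b, a) ∈ E.filter (fun e => ({e.1, e.2} : Finset (ℝ × ℝ)) = {a, b}) := by
      have hpair : ({b, a} : Finset (ℝ × ℝ)) = {a, b} := pair_comm b a
      refine mem_filter.mpr ⟨mem_filter.mpr ⟨?_, by simpa only [hpair] using hs⟩, hpair⟩
      unfold levelEdges
      exact mem_filter.mpr ⟨mem_product.mpr ⟨hb, ha⟩, hab.symm, hba_k⟩
    have hne : ((a, b) : (ℝ × ℝ) × (ℝ × ℝ)) ≠ (b, a) := by
      intro h
      exact hab (Prod.mk.inj h).1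
    exact one_lt_card.mpr ⟨_, h1, _, h2, hne⟩
  calc 2 * (halvingPairs P).card = ∑ _s ∈ halvingPairs P, 2 := by simp [mul_comm]
    _ ≤ ∑ s ∈ halvingPairs P, (E.filter (fun e => ({e.1, e.2} : Finset (ℝ × ℝ)) = s)).card :=
        sum_le_sum hfiber
    _ = E.card := hcard.symm
    _ ≤ (levelEdges P k).card := card_le_card (filter_subset _ _)

open Classical in
/-- Every `k`-set with nonempty complement is determined by an inner common tangent, a directed
edge at level `k - 1`. -/
theorem exists_tangent (P : Finset (ℝ × ℝ)) (hP : NoThreeCollinear P) (k : ℕ) (hk : 1 ≤ k)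
    (T : Finset (ℝ × ℝ)) (hT : T ∈ kSets P k) (hne : (P \ T).Nonempty) :
    ∃ e ∈ levelEdges P (k - 1), T = insert e.1 (P.filter (fun x => 0 < orient e.1 e.2 x)) := by
  have hT' := mem_filter.mp hT
  have hTP := (mem_powersetCard.mp hT'.1).1
  have hTcard := (mem_powersetCard.mp hT'.1).2
  obtain ⟨α, β, γ, hpos, hneg⟩ := hT'.2
  have hTne : T.Nonempty := by
    rw [← card_pos]
    omega
  set g : ℝ × ℝ → ℝ := fun x => α * x.1 + β * x.2 - γ with hg
  set h : ℝ × ℝ → ℝ := fun x => β * x.1 - α * x.2 with hh
  have hgpos : ∀ x ∈ T, 0 < g x := fun x hx => by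
    have := hpos x hx
    simp only [hg]
    linarith
  have hgneg : ∀ x ∈ P \ T, g x < 0 := fun x hx => by
    have := hneg x hx
    simp only [hg]
    linarith
  obtain ⟨⟨a, b⟩, hab, hmin⟩ := exists_min_image (T ×ˢ (P \ T))
    (fun e => (h e.1 - h e.2) / (g e.1 - g e.2)) (hTne.product hne)
  have ha : a ∈ T := (mem_product.mp hab).1
  have hb : b ∈ P \ T := (mem_product.mp hab).2
  set μ : ℝ := (h a - h b) / (g a - g b) with hμ
  have hdiff : 0 < g a - g b := by
    have h1 := hgpos a ha
    have h2 := hgneg b hb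
    linarith
  have hμeq : μ * (g a - g b) = h a - h b := by
    rw [hμ]
    field_simp
  have hid : ∀ x, (α ^ 2 + β ^ 2) * orient a b x =
      (g a - g b) * ((h x - h a) - μ * (g x - g a)) := by
    intro x
    have e : (g a - g b) * ((h x - h a) - μ * (g x - g a)) =
        (g a - g b) * (h x - h a) - (μ * (g a - g b)) * (g x - g a) := by ring
    rw [e, hμeq]
    simp only [orient, hg, hh]
    ring
  have hD : 0 < α ^ 2 + β ^ 2 := by
    by_contra hD
    have h0 : α ^ 2 + β ^ 2 = 0 := le_antisymm (not_lt.mp hD) (by positivity)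
    have hα : α = 0 := by nlinarith [sq_nonneg α, sq_nonneg β]
    have hβ : β = 0 := by nlinarith [sq_nonneg α, sq_nonneg β]
    have h1 := hgpos a ha
    have h2 := hgneg b hb
    simp only [hg, hα, hβ] at h1 h2
    linarith
  have haP : a ∈ P := hTP ha
  have hbP : b ∈ P := (mem_sdiff.mp hb).1
  have hbT : b ∉ T := (mem_sdiff.mp hb).2
  have hab' : a ≠ b := fun e => hbT (e ▸ ha)
  -- points of `T` other than `a` are on the left
  have hleft : ∀ x ∈ T, x ≠ a → 0 < orient a b x := by
    intro x hx hxa
    have hm := hmin (x, b) (mem_product.mpr ⟨hx, hb⟩)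
    have hdx : 0 < g x - g b := by
      have h1 := hgpos x hx
      have h2 := hgneg b hb
      linarith
    simp only at hm
    rw [le_div_iff₀ hdx] at hm
    have hnn : 0 ≤ (h x - h a) - μ * (g x - g a) := by nlinarith
    have hx0 : orient a b x ≠ 0 := hP a haP b hbP x (hTP hx) hab' (Ne.symm hxa)
      (fun e => hbT (e ▸ hx))
    have hnn' : 0 ≤ (α ^ 2 + β ^ 2) * orient a b x := by
      rw [hid]
      exact mul_nonneg hdiff.le hnn
    have : 0 ≤ orient a b x := by
      by_contra hc
      have := mul_neg_of_pos_of_neg hD (not_le.mp hc)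
      linarith
    exact lt_of_le_of_ne this (Ne.symm hx0)
  -- points outside `T` other than `b` are on the right
  have hright : ∀ y ∈ P \ T, y ≠ b → orient a b y < 0 := by
    intro y hy hyb
    have hm := hmin (a, y) (mem_product.mpr ⟨ha, hy⟩)
    have hdy : 0 < g a - g y := by
      have h1 := hgpos a ha
      have h2 := hgneg y hy
      linarith
    simp only at hm
    rw [le_div_iff₀ hdy] at hm
    have hnn : (h y - h a) - μ * (g y - g a) ≤ 0 := by nlinarith
    have hyP : y ∈ P := (mem_sdiff.mp hy).1
    have hyT : y ∉ T := (mem_sdiff.mp hy).2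
    have hy0 : orient a b y ≠ 0 := hP a haP b hbP y hyP hab' (fun e => hyT (e ▸ ha)) (Ne.symm hyb)
    have hnn' : (α ^ 2 + β ^ 2) * orient a b y ≤ 0 := by
      rw [hid]
      exact mul_nonpos_of_nonneg_of_nonpos hdiff.le hnn
    have : orient a b y ≤ 0 := by
      by_contra hc
      have := mul_pos hD (not_le.mp hc)
      linarith
    exact lt_of_le_of_ne this hy0
  have hfilter : P.filter (fun x => 0 < orient a b x) = T.erase a := by
    ext x
    simp only [mem_filter, mem_erase]
    constructor
    · rintro ⟨hxP, hx⟩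
      have hxa : x ≠ a := by
        rintro rfl
        simp [orient] at hx
      refine ⟨hxa, ?_⟩
      by_contra hxT
      by_cases hxb : x = b
      · subst hxb
        have : orient a x x = 0 := by
          simp only [orient]
          ring
        linarith
      · have := hright x (mem_sdiff.mpr ⟨hxP, hxT⟩) hxb
        linarith
    · rintro ⟨hxa, hxT⟩
      exact ⟨hTP hxT, hleft x hxT hxa⟩
  refine ⟨(a, b), ?_, ?_⟩
  · unfold levelEdges
    refine mem_filter.mpr ⟨mem_product.mpr ⟨haP, hbP⟩, hab', ?_⟩
    simp only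
    unfold leftCount
    rw [hfilter, card_erase_of_mem ha, hTcard]
  · simp only
    rw [hfilter, insert_erase ha]

open Classical in
/-- The number of `k`-sets is at most the number of level `k-1` edges, when `k` is smaller than the
size of `P`. -/
theorem kSets_card_le (P : Finset (ℝ × ℝ)) (hP : NoThreeCollinear P) (k : ℕ) (hk : 1 ≤ k)
    (hkn : k < P.card) : (kSets P k).card ≤ (levelEdges P (k - 1)).card := by
  set gmap : (ℝ × ℝ) × (ℝ × ℝ) → Finset (ℝ × ℝ) :=
    fun e => insert e.1 (P.filter (fun x => 0 < orient e.1 e.2 x)) with hgmap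
  have hsub : kSets P k ⊆ (levelEdges P (k - 1)).image gmap := by
    intro T hT
    have hT' := mem_filter.mp hT
    have hTP := mem_powersetCard.mp hT'.1
    have hne : (P \ T).Nonempty := by
      rw [← card_pos, card_sdiff_of_subset hTP.1]
      omega
    obtain ⟨e, he, heq⟩ := exists_tangent P hP k hk T hT hne
    exact mem_image.mpr ⟨e, he, heq.symm⟩
  exact (card_le_card hsub).trans card_image_le

end Vale.Agent.Lib.P065
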